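import Vale.Agent.P181.H676.Tail

/-! Two factorial bounds for the number of partitions with at most `a` parts. -/

namespace Vale.Agent.P181.H745

open Finset
open Vale.Agent.P181.H676

/-- weak compositions -/
def WC (a N : ℕ) : Finset (Fin a → ℕ) :=
  (Fintype.piFinset fun _ => Finset.range (N + 1)).filter fun l => ∑ i, l i = N

theorem mem_WC {a N : ℕ} {l : Fin a → ℕ} : l ∈ WC a N ↔ ∑ i, l i = N := by
  unfold WC
  constructor
  · intro h
    exact (Finset.mem_filter.1 h).2
  · intro h2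
    refine Finset.mem_filter.2 ⟨Fintype.mem_piFinset.2 fun i => ?_, h2⟩
    rw [Finset.mem_range, Nat.lt_succ_iff, ← h2]
    exact Finset.single_le_sum (f := l) (fun _ _ => Nat.zero_le _) (Finset.mem_univ i)

theorem card_WC (a N : ℕ) : (WC a N).card = (a + N - 1).choose N := by
  have h := Finset.card_finsuppAntidiag_nat_eq_choose (s := (univ : Finset (Fin a))) N
  rw [Finset.card_univ, Fintype.card_fin] at h
  rw [← h]
  refine Finset.card_bij (fun f _ => Finsupp.equivFunOnFinite.symm f) ?_ ?_ ?_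
  · intro f hf
    rw [Finset.mem_finsuppAntidiag]
    exact ⟨by simpa using mem_WC.1 hf, Finset.subset_univ _⟩
  · intro f _ f' _ hff
    exact Finsupp.equivFunOnFinite.symm.injective hff
  · intro g hg
    rw [Finset.mem_finsuppAntidiag] at hg
    refine ⟨g, mem_WC.2 hg.1, ?_⟩
    ext i
    simp

theorem L {a N : ℕ} : (N + a).choose a ≤ (a + 1).factorial * (Lam (a + 1) N).card := by
  classical
  have h1 : (WC (a + 1) N).card = (N + a).choose a := by
    rw [card_WC, show a + 1 + N - 1 = N + a by omega, Nat.choose_symm_add]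
  rw [← h1]
  have h2 : WC (a + 1) N ⊆ ((univ : Finset (Equiv.Perm (Fin (a + 1)))) ×ˢ Lam (a + 1) N).image
      fun p => p.2 ∘ p.1 := by
    intro f hf
    rw [mem_WC] at hf
    obtain ⟨π, hπ⟩ : ∃ π : Equiv.Perm (Fin (a + 1)), π = Fin.revPerm.trans (Tuple.sort f) := ⟨_, rfl⟩
    have h3 : Antitone (f ∘ π) := by
      intro i j hij
      rw [hπ]
      exact Tuple.monotone_sort f (Fin.rev_le_rev.2 hij)
    refine Finset.mem_image.2 ⟨(π⁻¹, f ∘ π), Finset.mem_product.2 ⟨Finset.mem_univ _, ?_⟩, ?_⟩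
    · rw [mem_Lam]
      refine ⟨h3, ?_⟩
      rw [← hf]
      exact Equiv.sum_comp π f
    · funext i
      simp
  refine (Finset.card_le_card h2).trans (Finset.card_image_le.trans ?_)
  rw [Finset.card_product, Finset.card_univ, Fintype.card_perm, Fintype.card_fin]

theorem U {r N : ℕ} :
    (r + 1).factorial * (Lam (r + 1) N).card ≤ (N + (r + 1) * r / 2 + r).choose r := by
  classical
  have h1 : (WC (r + 1) (N + (r + 1) * r / 2)).card = (N + (r + 1) * r / 2 + r).choose r := by
    rw [card_WC, show r + 1 + (N + (r + 1) * r / 2) - 1 = (N + (r + 1) * r / 2) + r by omega,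
      Nat.choose_symm_add]
  rw [← h1]
  have h2 : ((univ : Finset (Equiv.Perm (Fin (r + 1)))) ×ˢ Lam (r + 1) N).card =
      (r + 1).factorial * (Lam (r + 1) N).card := by
    rw [Finset.card_product, Finset.card_univ, Fintype.card_perm, Fintype.card_fin]
  rw [← h2]
  obtain ⟨δ, hδ⟩ : ∃ δ : Fin (r + 1) → ℕ, ∀ i, δ i = r - i.val := ⟨_, fun _ => rfl⟩
  have hsum : ∑ i, δ i = (r + 1) * r / 2 := by
    rw [Finset.sum_congr rfl fun i _ => hδ i, Fin.sum_univ_eq_sum_range (fun i => r - i) (r + 1)]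
    have h3 := Finset.sum_range_reflect (fun i => i) (r + 1)
    simp only [Nat.add_sub_cancel] at h3
    rw [h3, Finset.sum_range_id, Nat.add_sub_cancel]
  have hstr : ∀ l : Fin (r + 1) → ℕ, Antitone l → ∀ i j : Fin (r + 1), i < j →
      l j + δ j < l i + δ i := by
    intro l hl i j hij
    have h4 := hl hij.le
    rw [hδ, hδ]
    have h5 := j.isLt
    have h6 : i.val < j.val := hij
    omega
  have hinj : ∀ l : Fin (r + 1) → ℕ, Antitone l → Function.Injective fun i => l i + δ i := by
    intro l hl i j h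
    by_contra hne
    rcases lt_or_gt_of_ne hne with h1 | h1
    · exact absurd h (hstr l hl i j h1).ne'
    · exact absurd h (hstr l hl j i h1).ne
  refine Finset.card_le_card_of_injOn (fun p => fun i => p.2 (p.1 i) + δ (p.1 i)) ?_ ?_
  · intro p hp
    have hp' := (mem_Lam.1 (Finset.mem_product.1 (Finset.mem_coe.1 hp)).2)
    rw [Finset.mem_coe, mem_WC, Finset.sum_add_distrib]
    have e1 : ∑ i, p.2 (p.1 i) = N := by
      rw [← hp'.2]
      exact Equiv.sum_comp p.1 p.2
    have e2 : ∑ i, δ (p.1 i) = (r + 1) * r / 2 := by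
      rw [← hsum]
      exact Equiv.sum_comp p.1 δ
    rw [e1, e2]
  · intro p hp p' hp' h
    have hl := (mem_Lam.1 (Finset.mem_product.1 (Finset.mem_coe.1 hp)).2).1
    have hl' := (mem_Lam.1 (Finset.mem_product.1 (Finset.mem_coe.1 hp')).2).1
    obtain ⟨σ, l⟩ := p
    obtain ⟨σ', l'⟩ := p'
    simp only at hl hl' h
    obtain ⟨f, hf⟩ : ∃ f : Fin (r + 1) → ℕᵒᵈ, f = fun i => OrderDual.toDual (l (σ i) + δ (σ i)) :=
      ⟨_, rfl⟩
    have hf' : f = fun i => OrderDual.toDual (l' (σ' i) + δ (σ' i)) := by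
      rw [hf]
      funext i
      exact congrArg OrderDual.toDual (congrFun h i)
    have hap : ∀ (τ : Equiv.Perm (Fin (r + 1))) (i : Fin (r + 1)), τ (τ⁻¹ i) = i := fun τ i => by
      simp
    have m1 : Monotone (f ∘ (σ⁻¹ : Equiv.Perm (Fin (r + 1)))) := by
      intro i j hij
      rw [hf]
      show l (σ (σ⁻¹ j)) + δ (σ (σ⁻¹ j)) ≤ l (σ (σ⁻¹ i)) + δ (σ (σ⁻¹ i))
      rw [hap, hap]
      rcases hij.lt_or_eq with h1 | h1
      · exact (hstr l hl i j h1).le
      · rw [h1]
    have m2 : Monotone (f ∘ (σ'⁻¹ : Equiv.Perm (Fin (r + 1)))) := by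
      intro i j hij
      rw [hf']
      show l' (σ' (σ'⁻¹ j)) + δ (σ' (σ'⁻¹ j)) ≤ l' (σ' (σ'⁻¹ i)) + δ (σ' (σ'⁻¹ i))
      rw [hap, hap]
      rcases hij.lt_or_eq with h1 | h1
      · exact (hstr l' hl' i j h1).le
      · rw [h1]
    have h3 := Tuple.unique_monotone m1 m2
    have h4 : ∀ i, l i + δ i = l' i + δ i := by
      intro i
      have h5 := congrFun h3 i
      have h6 : f (σ⁻¹ i) = OrderDual.toDual (l i + δ i) := by
        rw [hf]
        simp
      have h7 : f (σ'⁻¹ i) = OrderDual.toDual (l' i + δ i) := by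
        rw [hf']
        simp
      have h8 : f (σ⁻¹ i) = f (σ'⁻¹ i) := h5
      rw [h6, h7] at h8
      exact OrderDual.toDual.injective h8
    have h5 : l = l' := by
      funext i
      have := h4 i
      omega
    subst h5
    have h6 : σ = σ' := by
      ext i
      have h7 := congrFun h i
      exact congrArg Fin.val (hinj l hl h7)
    rw [h6]

end Vale.Agent.P181.H745
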